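import Vale.Agent.P290.R2.H596.Spec3

/-! S4: the property holds in all fibres near a fibre of a proper family with the property. -/

open Set Filter Metric
open scoped Topology

namespace Vale.Agent.P290.R2.H701

open Vale.Agent.P290 Vale.Agent.P290.H805 Vale.Agent.P290.R2.H596

theorem symFibres (h3 : StSymNear) : StSymFibres := by
  intro T E _ _ F hp vol hv t₀ hx R hR
  set Ω : Set E := {y | SB F vol (F.p y) y R} with hΩ
  have h1 : IsClosed (F.p '' (interior Ω)ᶜ) := hp.isClosedMap _ isOpen_interior.isClosed_compl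
  have h2 : t₀ ∈ (F.p '' (interior Ω)ᶜ)ᶜ := by
    rintro ⟨y, hy, hyt⟩
    refine hy (mem_interior_iff_mem_nhds.2 ?_)
    exact h3 T E F vol hv t₀ y hyt R hR (hx y hyt (R + 1) (by linarith))
  filter_upwards [h1.isOpen_compl.mem_nhds h2] with t ht x hxt
  have h4 : x ∈ interior Ω := by
    by_contra h5
    exact ht ⟨x, h5, hxt⟩
  have h6 : x ∈ Ω := interior_subset h4
  have h5 : SB F vol (F.p x) x R := h6
  rwa [hxt] at h5

end Vale.Agent.P290.R2.H701

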