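import Vale.Agent.P290.R2.H596.Spec

/-! The fibres of a proper family of complex surfaces near a connected fibre are connected. -/

open Set Filter Metric Relation
open scoped Topology

namespace Vale.Agent.P290.R2.H701

open Vale.Agent.P290 Vale.Agent.P290.H805

variable {T E : Type} [TopologicalSpace T] [TopologicalSpace E]

/-- the box over `N` and the ball around `v` in the local trivialisation at `x` -/
def Box (F : Family T E) (x : E) (N : Set T) (v : C2) (r : ℝ) : Set E :=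
  (F.triv x).source ∩ F.triv x ⁻¹' (N ×ˢ ball v r)

theorem isOpen_box (F : Family T E) (x : E) {N : Set T} (hN : IsOpen N) (v : C2) (r : ℝ) :
    IsOpen (Box F x N v r) :=
  (F.triv x).isOpen_inter_preimage (hN.prod isOpen_ball)

theorem box_fibre (F : Family T E) (x : E) {N : Set T} {v : C2} {r : ℝ}
    (h : N ×ˢ ball v r ⊆ (F.triv x).target) {t : T} (ht : t ∈ N) :
    Box F x N v r ∩ F.p ⁻¹' {t} = (fun w => (F.triv x).symm (t, w)) '' ball v r := by
  ext y
  constructor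
  · rintro ⟨⟨h1, h2⟩, h3⟩
    have h3' : F.p y = t := h3
    have e : F.triv x y = (t, (F.triv x y).2) := by rw [← h3']; exact F.mk_eq x h1
    refine ⟨(F.triv x y).2, (mem_prod.1 h2).2, ?_⟩
    show (F.triv x).symm (t, (F.triv x y).2) = y
    rw [← e, (F.triv x).left_inv h1]
  · rintro ⟨w, hw, rfl⟩
    have h4 : (t, w) ∈ (F.triv x).target := h ⟨ht, hw⟩
    refine ⟨⟨(F.triv x).map_target h4, ?_⟩, F.p_symm x h4⟩
    show F.triv x ((F.triv x).symm (t, w)) ∈ N ×ˢ ball v r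
    rw [(F.triv x).right_inv h4]
    exact ⟨ht, hw⟩

theorem preconn_box (F : Family T E) (x : E) {N : Set T} {v : C2} {r : ℝ}
    (h : N ×ˢ ball v r ⊆ (F.triv x).target) {t : T} (ht : t ∈ N) :
    IsPreconnected (Box F x N v r ∩ F.p ⁻¹' {t}) := by
  rw [box_fibre F x h ht]
  refine (convex_ball v r).isPreconnected.image _ ?_
  refine (F.triv x).continuousOn_symm.comp (Continuous.prodMk_right t).continuousOn ?_
  intro w hw
  exact h ⟨ht, hw⟩

/-- boxes which meet over `t₀` meet over all nearby points -/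
theorem meet_near (F : Family T E) {t₀ : T} {U : Set E} (hU : IsOpen U) {y : E} (hy : y ∈ U)
    (hyt : F.p y = t₀) : ∀ᶠ t in 𝓝 t₀, (U ∩ F.p ⁻¹' {t}).Nonempty := by
  have e : F.triv y y = (t₀, (F.triv y y).2) := by rw [← hyt]; exact F.mk_eq y (F.mem y)
  have h1 : (t₀, (F.triv y y).2) ∈ (F.triv y).target := by
    rw [← e]; exact (F.triv y).map_source (F.mem y)
  have h2 : ContinuousAt (fun t => (t, (F.triv y y).2)) t₀ :=
    (Continuous.prodMk_left _).continuousAt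
  have h3 : ∀ᶠ t in 𝓝 t₀, (t, (F.triv y y).2) ∈ (F.triv y).target :=
    h2.eventually ((F.triv y).open_target.mem_nhds h1)
  have h4 : ContinuousAt (fun t => (F.triv y).symm (t, (F.triv y y).2)) t₀ :=
    ContinuousAt.comp (g := (F.triv y).symm) (f := fun t => (t, (F.triv y y).2))
      ((F.triv y).continuousAt_symm h1) h2
  have e2 : (F.triv y).symm (t₀, (F.triv y y).2) = y := by
    rw [← e, (F.triv y).left_inv (F.mem y)]
  have h5 : ∀ᶠ t in 𝓝 t₀, (F.triv y).symm (t, (F.triv y y).2) ∈ U := by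
    refine h4.eventually (hU.mem_nhds ?_)
    show (F.triv y).symm (t₀, (F.triv y y).2) ∈ U
    rw [e2]; exact hy
  filter_upwards [h3, h5] with t h6 h7
  exact ⟨_, h7, F.p_symm y h6⟩

/-- J6: the fibres near a connected fibre of a proper family are connected -/
theorem conn (T E : Type) [TopologicalSpace T] [TopologicalSpace E] (F : Family T E)
    (hp : IsProperMap F.p) (t₀ : T) (hc : ConnectedSpace (Fib F t₀)) :
    ∀ᶠ t in 𝓝 t₀, ConnectedSpace (Fib F t) := by
  classical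
  -- boxes
  have hbox : ∀ x : E, ∃ (N : Set T) (r : ℝ), F.p x = t₀ → IsOpen N ∧ t₀ ∈ N ∧ 0 < r ∧
      N ×ˢ ball (F.triv x x).2 r ⊆ (F.triv x).target := by
    intro x
    by_cases hx : F.p x = t₀
    · have e : F.triv x x = (t₀, (F.triv x x).2) := by rw [← hx]; exact F.mk_eq x (F.mem x)
      have h1 : (t₀, (F.triv x x).2) ∈ (F.triv x).target := by
        rw [← e]; exact (F.triv x).map_source (F.mem x)
      obtain ⟨N, B, hN, hB, h2, h3, h4⟩ := isOpen_prod_iff.1 (F.triv x).open_target t₀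
        (F.triv x x).2 h1
      obtain ⟨r, hr, h5⟩ := Metric.isOpen_iff.1 hB _ h3
      exact ⟨N, r, fun _ => ⟨hN, h2, hr, (prod_mono_right h5).trans h4⟩⟩
    · exact ⟨∅, 0, fun h => absurd h hx⟩
  choose N r hNr using hbox
  set U : E → Set E := fun x => Box F x (N x) (F.triv x x).2 (r x) with hUdef
  have hUo : ∀ x, F.p x = t₀ → IsOpen (U x) := fun x hx => isOpen_box F x (hNr x hx).1 _ _
  have hxU : ∀ x, F.p x = t₀ → x ∈ U x := by
    intro x hx
    refine ⟨F.mem x, ?_⟩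
    show F.triv x x ∈ N x ×ˢ ball (F.triv x x).2 (r x)
    rw [F.mk_eq x (F.mem x), hx]
    exact ⟨(hNr x hx).2.1, mem_ball_self (hNr x hx).2.2.1⟩
  -- a finite subcover
  have hK : IsCompact (F.p ⁻¹' {t₀}) := hp.isCompact_preimage isCompact_singleton
  obtain ⟨s, hs1, hs2⟩ := hK.elim_nhds_subcover U fun x hx => (hUo x hx).mem_nhds (hxU x hx)
  have hW : IsOpen (⋃ x ∈ s, U x) := isOpen_biUnion fun x hx => hUo x (hs1 x hx)
  -- the fibres near `t₀` are covered
  have hcov : ∀ᶠ t in 𝓝 t₀, F.p ⁻¹' {t} ⊆ ⋃ x ∈ s, U x := by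
    have h1 : IsClosed (F.p '' (⋃ x ∈ s, U x)ᶜ) := hp.isClosedMap _ hW.isClosed_compl
    have h2 : t₀ ∈ (F.p '' (⋃ x ∈ s, U x)ᶜ)ᶜ := by
      rintro ⟨y, hy, hyt⟩
      exact hy (hs2 hyt)
    filter_upwards [h1.isOpen_compl.mem_nhds h2] with t ht y hy
    by_contra h3
    exact ht ⟨y, h3, hy⟩
  have hNe : ∀ᶠ t in 𝓝 t₀, ∀ x ∈ s, t ∈ N x := by
    rw [Finset.eventually_all]
    intro x hx
    exact (hNr x (hs1 x hx)).1.mem_nhds (hNr x (hs1 x hx)).2.1
  -- adjacency over `t₀`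
  set R : s → s → Prop := fun i j => ((U i ∩ F.p ⁻¹' {t₀}) ∩ (U j ∩ F.p ⁻¹' {t₀})).Nonempty
    with hRdef
  have hR : ∀ i j : s, ReflTransGen R i j := by
    intro i
    set A : Set (Fib F t₀) := {y | ∃ j : s, ReflTransGen R i j ∧ y.val ∈ U j} with hA
    have hAo : IsOpen A := by
      have : A = ⋃ j ∈ {j : s | ReflTransGen R i j}, Fib.val ⁻¹' (U j) := by
        ext y; simp only [hA, mem_ofPred_eq, mem_iUnion, mem_preimage, exists_prop]
      rw [this]
      exact isOpen_biUnion fun j _ => (hUo j (hs1 j j.2)).preimage continuous_val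
    have hBo : IsOpen Aᶜ := by
      have : Aᶜ = ⋃ j ∈ {j : s | ¬ ReflTransGen R i j}, Fib.val ⁻¹' (U j) := by
        ext y
        simp only [mem_iUnion, mem_preimage, exists_prop, mem_compl_iff, mem_ofPred_eq]
        constructor
        · intro hy
          have h1 : y.val ∈ ⋃ x ∈ s, U x := hs2 y.prop
          simp only [mem_iUnion, exists_prop] at h1
          obtain ⟨x, hx, h2⟩ := h1
          exact ⟨⟨x, hx⟩, fun h3 => hy ⟨⟨x, hx⟩, h3, h2⟩, h2⟩
        · rintro ⟨j, h1, h2⟩ ⟨k, h3, h4⟩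
          exact h1 (h3.tail ⟨y.val, ⟨h4, y.prop⟩, h2, y.prop⟩)
      rw [this]
      exact isOpen_biUnion fun j _ => (hUo j (hs1 j j.2)).preimage continuous_val
    have hAu : A = univ := IsClopen.eq_univ ⟨isOpen_compl_iff.1 hBo, hAo⟩
      ⟨⟨i, hs1 i i.2⟩, i, ReflTransGen.refl, hxU i (hs1 i i.2)⟩
    intro j
    have h1 : (⟨j, hs1 j j.2⟩ : Fib F t₀) ∈ A := by rw [hAu]; trivial
    obtain ⟨k, h2, h3⟩ := h1
    exact h2.tail ⟨j, ⟨h3, hs1 j j.2⟩, hxU j (hs1 j j.2), hs1 j j.2⟩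
  -- adjacent boxes still meet
  have hmeet : ∀ᶠ t in 𝓝 t₀, ∀ i j : s, R i j →
      ((U i ∩ F.p ⁻¹' {t}) ∩ (U j ∩ F.p ⁻¹' {t})).Nonempty := by
    rw [eventually_all]
    intro i
    rw [eventually_all]
    intro j
    by_cases h : R i j
    · obtain ⟨y, ⟨h1, h2⟩, h3, -⟩ := h
      have h4 := meet_near F ((hUo i (hs1 i i.2)).inter (hUo j (hs1 j j.2))) ⟨h1, h3⟩ h2
      filter_upwards [h4] with t ht _
      obtain ⟨z, ⟨h5, h6⟩, h7⟩ := ht
      exact ⟨z, ⟨h5, h7⟩, h6, h7⟩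
    · exact Eventually.of_forall fun t ht => absurd ht h
  obtain ⟨y₀⟩ : Nonempty (Fib F t₀) := hc.toNonempty
  have hne : ∀ᶠ t in 𝓝 t₀, (univ ∩ F.p ⁻¹' {t}).Nonempty :=
    meet_near F isOpen_univ (mem_univ y₀.val) y₀.prop
  filter_upwards [hcov, hNe, hmeet, hne] with t h1 h2 h3 h4
  have h5 : IsPreconnected (⋃ i : s, (U i ∩ F.p ⁻¹' {t})) := by
    refine IsPreconnected.iUnion_of_reflTransGen
      (fun i => preconn_box F i (hNr i (hs1 i i.2)).2.2.2 (h2 i i.2)) ?_
    intro i j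
    exact ReflTransGen.mono h3 i j (hR i j)
  have h6 : (⋃ i : s, (U i ∩ F.p ⁻¹' {t})) = Fib.val '' (univ : Set (Fib F t)) := by
    ext y
    simp only [mem_iUnion, image_univ, mem_range]
    constructor
    · rintro ⟨i, -, h7⟩
      exact ⟨⟨y, h7⟩, rfl⟩
    · rintro ⟨z, rfl⟩
      have h7 : z.val ∈ ⋃ x ∈ s, U x := h1 z.prop
      simp only [mem_iUnion, exists_prop] at h7
      obtain ⟨x, hx, h8⟩ := h7
      exact ⟨⟨x, hx⟩, h8, z.prop⟩
  rw [h6, isInducing_val.isPreconnected_image] at h5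
  obtain ⟨y, -, hy⟩ := h4
  exact { isPreconnected_univ := h5, toNonempty := ⟨⟨y, hy⟩⟩ }

end Vale.Agent.P290.R2.H701
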